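import Vale.Agent.P254.SP.H649.Gap
import Vale.Agent.P254.SP.H545.StUps
import Vale.Agent.P254.SP.H127.StmtMeas

/-!
# P254, (SP_0): `StmtLin`, the linear identities in the position `E G = 0`
-/

open MeasureTheory Filter Matrix
open scoped ENNReal NNReal Topology

noncomputable section

namespace Vale.Agent.P254.SP.H515

open Vale.Agent.P227.M Vale.Agent.P254.S Vale.Agent.P254.S130 Vale.Agent.P254.SP
  Vale.Agent.P254.SP649

variable {n : ℕ} {P : F1} {φ V : E n → ℝ} {a b M κ : ℝ} {U : E n → Matrix (Fin n) (Fin n) ℝ}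
  {s : E n → Fin n → ℝ}

/-- `E (F_k v)_i = 0` -/
lemma ex_Fa (h : BP φ V a b M κ) (hF : Fr P φ U s) (v : Fin n → ℝ) (i k : Fin n) :
    ∫ z, ((Fa U s k z).mulVec v) i ∂(gQ n) = 0 := by
  have h1 := ex_pd_fv h hF v i k
  rw [Ex_eq] at h1
  rw [← h1]
  refine integral_congr_ae ?_
  filter_upwards [GG_ae_diff h hF] with z hz
  rw [pd_fv hz]

lemma int_Fa (h : BP φ V a b M κ) (hF : Fr P φ U s) (v : Fin n → ℝ) (i k : Fin n) :
    Integrable (fun z => ((Fa U s k z).mulVec v) i) (gQ n) := by
  have ip := gQ_prob (n := n)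
  simp only [Fa, Matrix.mulVec, dotProduct, Matrix.sub_apply]
  exact integrable_finsetSum _ fun j _ =>
    ((int_pdM h hF k i j).sub (integrable_const _)).mul_const _

theorem stmtLin : StmtLin := by
  intro P n φ V a b M κ U s hD h0 e q hq
  have h := hD.bp
  have hF := hD.fr
  have hU := hF.orth
  have ip := gQ_prob (n := n)
  choose K hK using fun i => fv_lip h hF e i
  have lf : ∀ i, LG (fv U s e i) := fun i => LG.of_lipschitz (hK i)
  have iG : ∀ i j, Integrable (fun z => GG U s z i j) (gQ n) := fun i j => by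
    obtain ⟨K, hK⟩ := bl_lip (SP127.mbl_GG h hF i j)
    exact (LG.of_lipschitz hK).integrable
  -- `E ⟨e, F e⟩ = 0`
  have hxF : ∀ z, ∑ i, xx U e z i * col U (FF U s) e z i = ∑ i, e i * fv U s e i z := fun z =>
    orth_dot (hU z) e ((FF U s z).mulVec e)
  have hzero : ∀ i, ∫ z, fv U s e i z ∂(gQ n) = 0 := fun i => by
    have := ex_fv h hF h0 e i
    rwa [Ex_eq] at this
  have r2 : Ex Q (fun z => ∑ i, xx U e z i * col U (FF U s) e z i) = 0 := by
    rw [Ex_eq]
    simp only [hxF]
    rw [integral_finsetSum _ fun i _ => (lf i).integrable.const_mul _]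
    refine Finset.sum_eq_zero fun i _ => ?_
    rw [integral_const_mul, hzero i, mul_zero]
  -- `E ⟨e, G e⟩ = 0`
  have r1 : Ex Q (fun z => ∑ i, s z i * xx U e z i ^ 2) = 0 := by
    rw [Ex_eq]
    have e1 : ∀ z, ∑ i, s z i * xx U e z i ^ 2 = ∑ i, e i * ∑ j, GG U s z i j * e j := fun z =>
      (H545.fr1 hU (fun x => x) e z).symm
    simp only [e1]
    rw [integral_finsetSum _ fun i _ =>
      (integrable_finsetSum _ fun j _ => (iG i j).mul_const _).const_mul _]
    refine Finset.sum_eq_zero fun i _ => ?_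
    rw [integral_const_mul, integral_finsetSum _ fun j _ => (iG i j).mul_const _]
    have e2 : ∀ j, ∫ z, GG U s z i j * e j ∂(gQ n) = 0 := fun j => by
      rw [integral_mul_const]
      have := h0 i j
      rw [Ex_eq] at this
      rw [this, zero_mul]
    simp only [e2, Finset.sum_const_zero, mul_zero]
  -- `E ⟨e, Z e⟩ = 0`
  have hxZ : ∀ z, ∑ i, xx U e z i * col U (ZZ U s) e z i
      = ∑ i, e i * ∑ k, ((Fa U s k z).mulVec ((AA U s k).mulVec e)) i := by
    intro z
    refine (orth_dot (hU z) e ((ZZ U s z).mulVec e)).trans ?_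
    refine Finset.sum_congr rfl fun i _ => ?_
    congr 1
    rw [← H545.ZZ_eq, Finset.sum_apply]
    rfl
  have r3 : Ex Q (fun z => ∑ i, xx U e z i * col U (ZZ U s) e z i) = 0 := by
    rw [Ex_eq]
    simp only [hxZ]
    rw [integral_finsetSum _ fun i _ =>
      (integrable_finsetSum _ fun k _ => int_Fa h hF _ i k).const_mul _]
    refine Finset.sum_eq_zero fun i _ => ?_
    rw [integral_const_mul, integral_finsetSum _ fun k _ => int_Fa h hF _ i k]
    have e2 : ∀ k, ∫ z, ((Fa U s k z).mulVec ((AA U s k).mulVec e)) i ∂(gQ n) = 0 := fun k =>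
      ex_Fa h hF _ i k
    simp only [e2, Finset.sum_const_zero, mul_zero]
  refine ⟨r1, r2, r3, ?_, ?_, ?_⟩
  · -- `E ⟨G e, F e⟩ = E |F e|²`
    have e1 : ∀ z, ∑ i, s z i * xx U e z i * col U (FF U s) e z i
        = ∑ i, fv U s e i z ^ 2
          + ∑ i, ∑ c, ((AA U s c).mulVec e) i * (z c * fv U s e i z) := by
      intro z
      have a1 : ∑ i, s z i * xx U e z i * col U (FF U s) e z i
          = ∑ i, ((GG U s z).mulVec e) i * fv U s e i z :=
        (H545.fr2 hU (fun x => x) (FF U s) e z).symm
      rw [a1, ← Finset.sum_add_distrib]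
      refine Finset.sum_congr rfl fun i _ => ?_
      have a2 : ((GG U s z).mulVec e) i = fv U s e i z + ∑ c, z c * ((AA U s c).mulVec e) i := by
        unfold fv FF
        rw [sub_mulVec, Pi.sub_apply, sum_mulVec, Finset.sum_apply]
        simp only [smul_mulVec, Pi.smul_apply, smul_eq_mul]
        ring
      rw [a2, add_mul, Finset.sum_mul, sq]
      congr 1
      exact Finset.sum_congr rfl fun c _ => by ring
    have i1 : ∀ i, Integrable (fun z => fv U s e i z ^ 2) (gQ n) := fun i => by
      have := int_mul (lf i) (lf i)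
      simpa only [← sq] using this
    have i2 : ∀ i c, Integrable (fun z : E n => z c * fv U s e i z) (gQ n) := fun i c =>
      int_mul (LG.coord c) (lf i)
    have i3 : Integrable (fun z => ∑ i, fv U s e i z ^ 2) (gQ n) :=
      integrable_finsetSum _ fun i _ => i1 i
    have i4 : ∀ i, Integrable (fun z => ∑ c, ((AA U s c).mulVec e) i * (z c * fv U s e i z))
        (gQ n) := fun i => integrable_finsetSum _ fun c _ => (i2 i c).const_mul _
    have e3 : ∀ i c, ∫ z, z c * fv U s e i z ∂(gQ n) = 0 := fun i c => by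
      rw [(lf i).ibp c]
      have := ex_pd_fv h hF e i c
      rwa [Ex_eq] at this
    rw [Ex_eq, Ex_eq]
    simp only [e1]
    rw [integral_add i3 (integrable_finsetSum _ fun i _ => i4 i),
      integral_finsetSum _ fun i _ => i4 i]
    have e4 : ∀ i, ∫ z, ∑ c, ((AA U s c).mulVec e) i * (z c * fv U s e i z) ∂(gQ n) = 0 := by
      intro i
      rw [integral_finsetSum _ fun c _ => (i2 i c).const_mul _]
      refine Finset.sum_eq_zero fun c _ => ?_
      rw [integral_const_mul, e3 i c, mul_zero]
    simp only [e4, Finset.sum_const_zero, add_zero]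
    exact integral_congr_ae (ae_of_all _ fun z => (col_sq hF e z).symm)
  · -- `E Σ ⟨A_k e, F_k e⟩ = 0`
    have e1 : ∀ z, ∑ k, ∑ i, xx U ((AA U s k).mulVec e) z i * col U (Fa U s k) e z i
        = ∑ k, ∑ i, ((AA U s k).mulVec e) i * ((Fa U s k z).mulVec e) i := fun z =>
      Finset.sum_congr rfl fun k _ => orth_dot (hU z) ((AA U s k).mulVec e) ((Fa U s k z).mulVec e)
    rw [Ex_eq]
    simp only [e1]
    rw [integral_finsetSum _ fun k _ =>
      integrable_finsetSum _ fun i _ => (int_Fa h hF e i k).const_mul _]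
    refine Finset.sum_eq_zero fun k _ => ?_
    rw [integral_finsetSum _ fun i _ => (int_Fa h hF e i k).const_mul _]
    refine Finset.sum_eq_zero fun i _ => ?_
    rw [integral_const_mul, ex_Fa h hF, mul_zero]
  · -- `Σ |A_k e|² = q |e|²`
    intro z
    have hs : ∀ k, (AA U s k).IsSymm := by
      intro k
      ext i j
      show AA U s k j i = AA U s k i j
      unfold AA
      congr 1
      funext z
      exact congrFun (congrFun (SP127.pdM_GG_symm U s k z) i) j
    have e1 : ∀ k, ∑ i, xx U ((AA U s k).mulVec e) z i ^ 2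
        = e ⬝ᵥ (AA U s k).mulVec ((AA U s k).mulVec e) := by
      intro k
      have := orth_dot (hU z) ((AA U s k).mulVec e) ((AA U s k).mulVec e)
      simp only [← sq] at this
      refine this.trans ?_
      rw [dotProduct_mulVec, ← mulVec_transpose, (hs k)]
      simp only [dotProduct, sq]
    simp only [e1]
    rw [← dotProduct_sum, H545.hq_of hq, dotProduct_smul, smul_eq_mul]
    simp only [dotProduct, sq]

end Vale.Agent.P254.SP.H515
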