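import Vale.Agent.P254.SP.H127.Forms0

/-!
P254, line (SP_0), row P4 (helper515): block (A), the forms in `(f, α, k₁)` of the columns `q ≥ 4`.

`formA_of_scal`, `formA0_of_scal`: the 3x3 form is nonnegative for every `g` as soon as one scalar
polynomial inequality in `S = r' ∈ [0, 1/2]` holds; `scal5` .. `scal8` verify it for the numbers of
the four ranges.
-/

set_option autoImplicit false

namespace Vale.Agent.P254.SP.H515

open Vale.Agent.P227.M Vale.Agent.P254.S Vale.Agent.P254.SP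

/-- a form in three variables with two cross terms -/
theorem form3 {A B C E F f al k : ℝ} (hA : 0 < A) (hE : 0 < E)
    (h : A * F ^ 2 ≤ 4 * E * (C * A - B ^ 2)) :
    0 ≤ A * k ^ 2 + 2 * B * k * f + C * f ^ 2 + E * al ^ 2 + F * (al * f) := by
  have e : A * k ^ 2 + 2 * B * k * f + C * f ^ 2 + E * al ^ 2 + F * (al * f)
      = (4 * E * (A * k + B * f) ^ 2 + A * (2 * E * al + F * f) ^ 2
        + (4 * E * (C * A - B ^ 2) - A * F ^ 2) * f ^ 2) / (4 * A * E) := by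
    field_simp
    ring
  rw [e]
  have h1 : 0 ≤ (4 * E * (C * A - B ^ 2) - A * F ^ 2) * f ^ 2 :=
    mul_nonneg (by linarith) (sq_nonneg f)
  have h2 : 0 ≤ 4 * E * (A * k + B * f) ^ 2 := by positivity
  have h3 : 0 ≤ A * (2 * E * al + F * f) ^ 2 := by positivity
  have h4 : 0 < 4 * A * E := by positivity
  exact div_nonneg (by linarith) h4.le

/-- mode 1, as a statement about real numbers -/
theorem coreA1 {c s L5 L6 L7 B4 nu b1 S f al k1 : ℝ} (hL5 : 0 < L5) (hB4 : 0 ≤ B4)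
    (hA : 0 < c * b1 - (c - 1) - (1 + s))
    (h : (c * b1 - (c - 1) - (1 + s)) * (-(c - 1) * S ^ 2 + L7 + B4 * S ^ 2) ^ 2
      ≤ 4 * (L5 + B4 * S ^ 2) * ((c - (1 + 1 / s) / 16 - (c - 1) * S ^ 2 - (1 + s) * (S - 1 / 4) ^ 2
          - L6 - c * nu) * (c * b1 - (c - 1) - (1 + s))
        - ((c - 1) * S + (1 + s) * (S - 1 / 4)) ^ 2)) :
    0 ≤ (c - (1 + 1 / s) / 16) * f ^ 2 - (c - 1) * (S * f + k1) ^ 2
      - (1 + s) * (S * f + k1 - 1 / 4 * f) ^ 2 - (c - 1) * (S ^ 2 * al * f)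
      + L5 * al ^ 2 + L7 * (al * f) + B4 * (S ^ 2 * al ^ 2 + S ^ 2 * al * f)
      - L6 * f ^ 2 - c * nu * f ^ 2 + c * b1 * k1 ^ 2 := by
  have hE : 0 < L5 + B4 * S ^ 2 := by positivity
  have := form3 (B := -((c - 1) * S + (1 + s) * (S - 1 / 4))) (f := f) (al := al) (k := k1)
    (C := c - (1 + 1 / s) / 16 - (c - 1) * S ^ 2 - (1 + s) * (S - 1 / 4) ^ 2 - L6 - c * nu)
    (F := -(c - 1) * S ^ 2 + L7 + B4 * S ^ 2) hA hE (by rw [neg_sq]; exact h)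
  refine this.trans_eq ?_
  ring

/-- mode 0, as a statement about real numbers -/
theorem coreA0 {c L5 L6 L7 B4 nu b1 S f al k1 : ℝ} (hL5 : 0 < L5) (hB4 : 0 ≤ B4)
    (hA : 0 < c * b1 - c)
    (h : (c * b1 - c) * (-c * S ^ 2 + L7 + B4 * S ^ 2) ^ 2
      ≤ 4 * (L5 + B4 * S ^ 2) * ((c - c * S ^ 2 - L6 - c * nu) * (c * b1 - c) - (c * S) ^ 2)) :
    0 ≤ c * f ^ 2 - c * (S * f + k1) ^ 2 - c * (S ^ 2 * al * f)
      + L5 * al ^ 2 + L7 * (al * f) + B4 * (S ^ 2 * al ^ 2 + S ^ 2 * al * f)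
      - L6 * f ^ 2 - c * nu * f ^ 2 + c * b1 * k1 ^ 2 := by
  have hE : 0 < L5 + B4 * S ^ 2 := by positivity
  have := form3 (B := -(c * S)) (f := f) (al := al) (k := k1)
    (C := c - c * S ^ 2 - L6 - c * nu)
    (F := -c * S ^ 2 + L7 + B4 * S ^ 2) hA hE (by rw [neg_sq]; exact h)
  refine this.trans_eq ?_
  ring

/-- mode 0 with `L5 = L7 = 0`, `B4 = c / 2` (last range) -/
theorem coreA8 {c L6 nu b1 S f al k1 : ℝ} (hc : 0 < c) (hb : 1 < b1)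
    (h : S ^ 2 * (9 / 8 + 1 / (b1 - 1)) + L6 / c + nu ≤ 1) :
    0 ≤ c * f ^ 2 - c * (S * f + k1) ^ 2 - c * (S ^ 2 * al * f)
      + 0 * al ^ 2 + 0 * (al * f) + c / 2 * (S ^ 2 * al ^ 2 + S ^ 2 * al * f)
      - L6 * f ^ 2 - c * nu * f ^ 2 + c * b1 * k1 ^ 2 := by
  have hb' : 0 < b1 - 1 := by linarith
  have e : c * f ^ 2 - c * (S * f + k1) ^ 2 - c * (S ^ 2 * al * f)
      + 0 * al ^ 2 + 0 * (al * f) + c / 2 * (S ^ 2 * al ^ 2 + S ^ 2 * al * f)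
      - L6 * f ^ 2 - c * nu * f ^ 2 + c * b1 * k1 ^ 2
      = c * (1 - (S ^ 2 * (9 / 8 + 1 / (b1 - 1)) + L6 / c + nu)) * f ^ 2
        + c / 2 * S ^ 2 * (al - f / 2) ^ 2 + c * ((b1 - 1) * k1 - S * f) ^ 2 / (b1 - 1) := by
    field_simp
    ring
  rw [e]
  have h1 : 0 ≤ c * (1 - (S ^ 2 * (9 / 8 + 1 / (b1 - 1)) + L6 / c + nu)) * f ^ 2 :=
    mul_nonneg (mul_nonneg hc.le (by linarith)) (sq_nonneg f)
  positivity

/-- mode 1: block (A) for every `g` -/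
theorem formA_of_scal (P : F1) {N : ℕ} {nu b1 : ℝ} (m : SP38.Mult N) (hL5 : 0 < m.L5)
    (hB4 : 0 ≤ m.B4) (hA : 0 < m.c * b1 - (m.c - 1) - (1 + m.σ))
    (h : ∀ S : ℝ, 0 ≤ S → S ≤ 1 / 2 →
      (m.c * b1 - (m.c - 1) - (1 + m.σ)) * (-(m.c - 1) * S ^ 2 + m.L7 + m.B4 * S ^ 2) ^ 2
      ≤ 4 * (m.L5 + m.B4 * S ^ 2) * ((m.c - (1 + 1 / m.σ) / 16 - (m.c - 1) * S ^ 2
          - (1 + m.σ) * (S - 1 / 4) ^ 2 - m.L6 - m.c * nu) * (m.c * b1 - (m.c - 1) - (1 + m.σ))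
        - ((m.c - 1) * S + (1 + m.σ) * (S - 1 / 4)) ^ 2)) :
    ∀ g f al k1, 0 ≤ SP38.FormA P nu b1 m g f al k1 := fun g _ _ _ =>
  coreA1 hL5 hB4 hA (h _ (P.r'_pos g).le (P.r'_lt g).le)

/-- mode 0: block (A) for every `g` -/
theorem formA0_of_scal (P : F1) {N : ℕ} {nu b1 : ℝ} (m : SP127.Mult0 N) (hL5 : 0 < m.L5)
    (hB4 : 0 ≤ m.B4) (hA : 0 < m.c * b1 - m.c)
    (h : ∀ S : ℝ, 0 ≤ S → S ≤ 1 / 2 →
      (m.c * b1 - m.c) * (-m.c * S ^ 2 + m.L7 + m.B4 * S ^ 2) ^ 2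
      ≤ 4 * (m.L5 + m.B4 * S ^ 2) * ((m.c - m.c * S ^ 2 - m.L6 - m.c * nu) * (m.c * b1 - m.c)
        - (m.c * S) ^ 2)) :
    ∀ g f al k1, 0 ≤ SP127.FormA0 P nu b1 m g f al k1 := fun g _ _ _ =>
  coreA0 hL5 hB4 hA (h _ (P.r'_pos g).le (P.r'_lt g).le)

/-- mode 0, last range: block (A) for every `g` -/
theorem formA0_last (P : F1) {N : ℕ} {nu b1 : ℝ} (m : SP127.Mult0 N) (hc : 0 < m.c) (hb : 1 < b1)
    (hL5 : m.L5 = 0) (hL7 : m.L7 = 0) (hB4 : m.B4 = m.c / 2)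
    (h : 1 / 4 * (9 / 8 + 1 / (b1 - 1)) + m.L6 / m.c + nu ≤ 1) :
    ∀ g f al k1, 0 ≤ SP127.FormA0 P nu b1 m g f al k1 := by
  intro g f al k1
  unfold SP127.FormA0
  rw [hL5, hL7, hB4]
  refine coreA8 hc hb ?_
  have h0 := (P.r'_pos g).le
  have h1 := (P.r'_lt g).le
  have h2 : P.r' g ^ 2 ≤ 1 / 4 := by nlinarith
  have h3 : 0 < b1 - 1 := by linarith
  have h4 : (0 : ℝ) ≤ 9 / 8 + 1 / (b1 - 1) := by positivity
  have h5 := mul_le_mul_of_nonneg_right h2 h4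
  linarith

/-- a quartic on `[0, 1/2]` -/
theorem quart {a0 a1 a2 a3 a4 S : ℝ} (hS0 : 0 ≤ S) (hS1 : S ≤ 1 / 2) (h4 : a4 ≤ 0)
    (h3 : a3 + a4 / 2 ≤ 0) (h0 : 0 ≤ a0)
    (h1 : 0 ≤ a0 + a1 / 2 + a2 / 4 + a3 / 8 + a4 / 16) (h5 : 0 ≤ a1) :
    0 ≤ a0 + a1 * S + a2 * S ^ 2 + a3 * S ^ 3 + a4 * S ^ 4 := by
  have hT : 0 ≤ 1 / 2 - S := by linarith
  have e3 : 0 ≤ S ^ 3 * (1 / 2 - S) := by positivity
  have e2 : 0 ≤ S ^ 2 * (1 / 2 - S) := by positivity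
  have e1 : 0 ≤ S * (1 / 2 - S) := by positivity
  have q3 : (a3 + a4 / 2) * S ^ 3 ≤ a3 * S ^ 3 + a4 * S ^ 4 := by nlinarith
  have q2 : (a3 + a4 / 2) / 2 * S ^ 2 ≤ (a3 + a4 / 2) * S ^ 3 := by nlinarith
  have q1 : 0 ≤ a0 + a1 * S + (a2 + a3 / 2 + a4 / 4) * S ^ 2 := by
    rcases le_total 0 (a2 + a3 / 2 + a4 / 4) with h | h
    · positivity
    · have : (a2 + a3 / 2 + a4 / 4) / 2 * S ≤ (a2 + a3 / 2 + a4 / 4) * S ^ 2 := by nlinarith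
      have h6 : 0 ≤ a0 + (a1 + a2 / 2 + a3 / 4 + a4 / 8) * S := by
        rcases le_total (a2 / 2 + a1 + a3 / 4 + a4 / 8) 0 with h7 | h7
        · nlinarith
        · have : 0 ≤ (a1 + a2 / 2 + a3 / 4 + a4 / 8) * S := mul_nonneg (by linarith) hS0
          linarith
      nlinarith
  nlinarith

/-- `q ∈ [4,7]`, mode 1, `c = 5/3` (list V2 of helper20) -/
theorem formA_47 (P : F1) {N : ℕ} (m : SP38.Mult N) (hc : m.c = 5 / 3) (hs : m.σ = 3 / 5)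
    (h5 : m.L5 = 1 / 600) (h6 : m.L6 = 581 / 600) (h7 : m.L7 = 1 / 24)
    (hB : m.B4 = 1 / 10) : ∀ g f al k1, 0 ≤ SP38.FormA P (2 / 25) 10 m g f al k1 := by
  refine formA_of_scal P m (by rw [h5]; norm_num) (by rw [hB]; norm_num)
    (by rw [hc, hs]; norm_num) fun S h0 h1 => ?_
  rw [hc, hs, h5, h6, h7, hB]
  have := quart (a0 := 193 / 75000) (a1 := 4 / 45) (a2 := 35143 / 16875) (a3 := 16 / 3)
    (a4 := -(22202 / 1125)) h0 h1 (by norm_num) (by norm_num) (by norm_num) (by norm_num) (by norm_num)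
  refine sub_nonneg.1 (this.trans_eq ?_)
  ring

/-- `q ∈ [7,12]`, mode 1, `c = 8/3` (list V2 of helper20) -/
theorem formA_712 (P : F1) {N : ℕ} (m : SP38.Mult N) (hc : m.c = 8 / 3) (hs : m.σ = 3 / 5)
    (h5 : m.L5 = 1 / 750) (h6 : m.L6 = 589 / 375) (h7 : m.L7 = 4 / 75)
    (hB : m.B4 = 11 / 24) : ∀ g f al k1, 0 ≤ SP38.FormA P (2 / 25) 10 m g f al k1 := by
  refine formA_of_scal P m (by rw [h5]; norm_num) (by rw [hB]; norm_num)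
    (by rw [hc, hs]; norm_num) fun S h0 h1 => ?_
  rw [hc, hs, h5, h6, h7, hB]
  have := quart (a0 := 2218 / 234375) (a1 := 128 / 1125) (a2 := 968101 / 33750) (a3 := 352 / 9)
    (a4 := -(1675031 / 8640)) h0 h1 (by norm_num) (by norm_num) (by norm_num) (by norm_num) (by norm_num)
  refine sub_nonneg.1 (this.trans_eq ?_)
  ring

/-- `q ∈ [12,40]`, mode 0, `c = 9/2` (list V2 of helper20) -/
theorem formA_1240 (P : F1) {N : ℕ} (m : SP127.Mult0 N) (hc : m.c = 9 / 2)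
    (h5 : m.L5 = 9 / 2000) (h6 : m.L6 = 5517 / 2000) (h7 : m.L7 = 63 / 400)
    (hB : m.B4 = 153 / 80) : ∀ g f al k1, 0 ≤ SP127.FormA0 P (2 / 25) 10 m g f al k1 := by
  refine formA0_of_scal P m (by rw [h5]; norm_num) (by rw [hB]; norm_num)
    (by rw [hc]; norm_num) fun S h0 h1 => ?_
  rw [hc, h5, h6, h7, hB]
  have := quart (a0 := 19683 / 8000000) (a1 := 0) (a2 := 73182123 / 160000) (a3 := 0)
    (a4 := -(23299569 / 12800)) h0 h1 (by norm_num) (by norm_num) (by norm_num) (by norm_num) (by norm_num)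
  refine sub_nonneg.1 (this.trans_eq ?_)
  ring

/-- `q ≥ 40`, mode 0, `c = 12` -/
theorem formA_40 (P : F1) {N : ℕ} (m : SP127.Mult0 N) (hc : m.c = 12)
    (h5 : m.L5 = 0) (h6 : m.L6 = 183 / 25) (h7 : m.L7 = 0)
    (hB : m.B4 = 6) : ∀ g f al k1, 0 ≤ SP127.FormA0 P (2 / 25) 10 m g f al k1 :=
  formA0_last P m (by rw [hc]; norm_num) (by norm_num) h5 h7 (by norm_num [hB, hc])
    (by rw [hc, h6]; norm_num)

end Vale.Agent.P254.SP.H515
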